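import Mathlib

/-!
Generalized regular expressions, their languages and star heights, and basic closure
properties of the classes of languages of bounded generalized star height.
-/

namespace Vale.Agent.P329

universe u

/-- Generalized regular expressions over the alphabet `α`. -/
inductive GExp (α : Type u) : Type u
  | zero : GExp α
  | one : GExp α
  | letter : α → GExp α
  | add : GExp α → GExp α → GExp α
  | mul : GExp α → GExp α → GExp α
  | neg : GExp α → GExp α
  | star : GExp α → GExp α

/-- The language denoted by a generalized regular expression. -/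
def GExp.lang {α : Type u} : GExp α → Set (List α)
  | GExp.zero => ∅
  | GExp.one => {[]}
  | GExp.letter a => {[a]}
  | GExp.add P Q => P.lang ∪ Q.lang
  | GExp.mul P Q => {w | ∃ x ∈ P.lang, ∃ y ∈ Q.lang, w = x ++ y}
  | GExp.neg P => (P.lang)ᶜ
  | GExp.star P => {w | ∃ l : List (List α), (∀ x ∈ l, x ∈ P.lang) ∧ w = l.flatten}

/-- The star height of a generalized regular expression. -/
def GExp.height {α : Type u} : GExp α → ℕ
  | GExp.zero => 0
  | GExp.one => 0
  | GExp.letter _ => 0
  | GExp.add P Q => max P.height Q.height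
  | GExp.mul P Q => max P.height Q.height
  | GExp.neg P => P.height
  | GExp.star P => P.height + 1

/-- `Hgt k L`: the language `L` is denoted by a generalized regular expression of star
height at most `k`, i.e. `L` has generalized star height at most `k`. -/
def Hgt {α : Type u} (k : ℕ) (L : Set (List α)) : Prop :=
  ∃ e : GExp α, e.lang = L ∧ e.height ≤ k

/-- Concatenation of languages. -/
def cat {α : Type u} (P Q : Set (List α)) : Set (List α) :=
  {w | ∃ x ∈ P, ∃ y ∈ Q, w = x ++ y}

/-- Powers of a language. -/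
def lpow {α : Type u} (P : Set (List α)) : ℕ → Set (List α)
  | 0 => {[]}
  | n + 1 => cat P (lpow P n)

/-- Kleene star. -/
def lstar {α : Type u} (P : Set (List α)) : Set (List α) :=
  {w | ∃ l : List (List α), (∀ x ∈ l, x ∈ P) ∧ w = l.flatten}

variable {α : Type u}

theorem Hgt.mono {k m : ℕ} {L : Set (List α)} (h : Hgt k L) (hkm : k ≤ m) : Hgt m L := by
  obtain ⟨e, he, hk⟩ := h
  exact ⟨e, he, hk.trans hkm⟩

theorem Hgt.congr {k : ℕ} {L M : Set (List α)} (h : Hgt k L) (hLM : M = L) : Hgt k M := by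
  rw [hLM]; exact h

theorem hgt_empty (k : ℕ) : Hgt k (∅ : Set (List α)) := ⟨GExp.zero, rfl, Nat.zero_le _⟩

theorem hgt_one (k : ℕ) : Hgt k ({[]} : Set (List α)) := ⟨GExp.one, rfl, Nat.zero_le _⟩

theorem hgt_letter (k : ℕ) (a : α) : Hgt k ({[a]} : Set (List α)) :=
  ⟨GExp.letter a, rfl, Nat.zero_le _⟩

theorem Hgt.union {k : ℕ} {L M : Set (List α)} (hL : Hgt k L) (hM : Hgt k M) :
    Hgt k (L ∪ M) := by
  obtain ⟨e, he, hk⟩ := hL
  obtain ⟨f, hf, hk'⟩ := hM
  exact ⟨GExp.add e f, by simp [GExp.lang, he, hf], max_le hk hk'⟩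

theorem Hgt.cat {k : ℕ} {L M : Set (List α)} (hL : Hgt k L) (hM : Hgt k M) :
    Hgt k (cat L M) := by
  obtain ⟨e, he, hk⟩ := hL
  obtain ⟨f, hf, hk'⟩ := hM
  exact ⟨GExp.mul e f, by simp [GExp.lang, he, hf, P329.cat], max_le hk hk'⟩

theorem Hgt.compl {k : ℕ} {L : Set (List α)} (hL : Hgt k L) : Hgt k Lᶜ := by
  obtain ⟨e, he, hk⟩ := hL
  exact ⟨GExp.neg e, by simp [GExp.lang, he], hk⟩

theorem Hgt.star {k : ℕ} {L : Set (List α)} (hL : Hgt k L) : Hgt (k + 1) (lstar L) := by
  obtain ⟨e, he, hk⟩ := hL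
  exact ⟨GExp.star e, by simp [GExp.lang, he, lstar], Nat.succ_le_succ hk⟩

theorem hgt_univ (k : ℕ) : Hgt k (Set.univ : Set (List α)) := by
  have := (hgt_empty (α := α) k).compl
  simpa using this

theorem Hgt.inter {k : ℕ} {L M : Set (List α)} (hL : Hgt k L) (hM : Hgt k M) :
    Hgt k (L ∩ M) := by
  have := (hL.compl.union hM.compl).compl
  simpa [Set.compl_union] using this

theorem Hgt.lpow {k : ℕ} {L : Set (List α)} (hL : Hgt k L) (n : ℕ) : Hgt k (lpow L n) := by
  induction n with
  | zero => exact hgt_one k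
  | succ n ih => exact hL.cat ih

theorem Hgt.finset_union {k : ℕ} {ι : Type*} (s : Finset ι) (L : ι → Set (List α))
    (h : ∀ i ∈ s, Hgt k (L i)) : Hgt k (⋃ i ∈ s, L i) := by
  classical
  induction s using Finset.induction_on with
  | empty => simpa using hgt_empty (α := α) k
  | insert a s ha ih =>
    rw [Finset.set_biUnion_insert]
    exact (h a (Finset.mem_insert_self a s)).union
      (ih fun i hi => h i (Finset.mem_insert_of_mem hi))

theorem Hgt.iUnion {k : ℕ} {ι : Type*} [Finite ι] (L : ι → Set (List α))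
    (h : ∀ i, Hgt k (L i)) : Hgt k (⋃ i, L i) := by
  classical
  have := Fintype.ofFinite ι
  have := Hgt.finset_union (k := k) Finset.univ L (fun i _ => h i)
  simpa using this

theorem Hgt.of_prop {k : ℕ} {L : Set (List α)} (p : Prop) (h : Hgt k L) :
    Hgt k {w | p ∧ w ∈ L} := by
  by_cases hp : p
  · simpa [hp] using h
  · simpa [hp] using hgt_empty (α := α) k

/-- words all of whose letters satisfy `p` form a star-free language. -/
theorem hgt_all [Finite α] (p : α → Prop) : Hgt 0 {w : List α | ∀ a ∈ w, p a} := by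
  have h : Hgt 0 (⋃ b : α, {w : List α | ¬ p b ∧
      w ∈ P329.cat Set.univ (P329.cat {[b]} Set.univ)}) := by
    refine Hgt.iUnion _ fun b => Hgt.of_prop _ ?_
    exact (hgt_univ 0).cat ((hgt_letter 0 b).cat (hgt_univ 0))
  have h2 := h.compl
  refine h2.congr ?_
  ext w
  simp only [Set.mem_setOf_eq, Set.mem_compl_iff, Set.mem_iUnion, not_exists, not_and]
  constructor
  · rintro hw b hb ⟨x, -, y, ⟨z, hz, t, -, rfl⟩, rfl⟩
    apply hb
    apply hw
    simp only [Set.mem_singleton_iff] at hz
    subst hz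
    simp
  · intro hw a ha
    by_contra hpa
    obtain ⟨s, t, rfl⟩ := List.append_of_mem ha
    exact hw a hpa ⟨s, trivial, a :: t, ⟨[a], rfl, t, trivial, rfl⟩, rfl⟩

/-! ### Computable functions -/

/-- `CompT f`: every fibre of `f` has generalized star height at most one. -/
def CompT {T : Type*} (f : List α → T) : Prop := ∀ t, Hgt 1 {w | f w = t}

theorem CompT.preimage {T : Type*} [Finite T] {f : List α → T} (hf : CompT f) (S : Set T) :
    Hgt 1 {w | f w ∈ S} := by
  have h : Hgt 1 (⋃ t : T, {w | t ∈ S ∧ w ∈ {w | f w = t}}) :=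
    Hgt.iUnion _ fun t => Hgt.of_prop _ (hf t)
  refine h.congr ?_
  ext w
  simp

theorem CompT.map {T T' : Type*} [Finite T] {f : List α → T} (hf : CompT f) (g : T → T') :
    CompT (fun w => g (f w)) := by
  intro t'
  exact hf.preimage {t | g t = t'}

theorem CompT.const {T : Type*} (t : T) : CompT (fun _ : List α => t) := by
  intro t'
  by_cases h : t = t'
  · simpa [h] using hgt_univ (α := α) 1
  · simpa [h] using hgt_empty (α := α) 1

theorem CompT.prodMk {T T' : Type*} {f : List α → T} {g : List α → T'}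
    (hf : CompT f) (hg : CompT g) : CompT (fun w => (f w, g w)) := by
  rintro ⟨t, t'⟩
  refine ((hf t).inter (hg t')).congr ?_
  ext w
  simp

theorem CompT.pi {ι : Type*} [Finite ι] {T : ι → Type*} {f : ∀ i, List α → T i}
    (hf : ∀ i, CompT (f i)) : CompT (fun w => (fun i => f i w : ∀ i, T i)) := by
  intro t
  have h : Hgt 1 (⋃ i : ι, {w | f i w = t i}ᶜ) := Hgt.iUnion _ fun i => (hf i (t i)).compl
  refine h.compl.congr ?_
  ext w
  simp [funext_iff]

end Vale.Agent.P329
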