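import Vale.Agent.P329.Renewal

/-!
Sums over the occurrences of a letter `σ` of a quadratic function of the numbers of occurrences
of the letters in the prefix before that occurrence, modulo `N`.
-/

namespace Vale.Agent.P329

universe u

variable {α : Type u} [DecidableEq α]

/-- the vector of letter counts after reading one more letter -/
def bump (r : α → ℕ) (a : α) : α → ℕ := fun b => r b + if b = a then 1 else 0

/-- the vector of letter counts after reading a word -/
def fin : (α → ℕ) → List α → (α → ℕ)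
  | r, [] => r
  | r, a :: w => fin (bump r a) w

/-- the sum of `g` (letter counts of the prefix) over all occurrences of `σ` -/
def wsum {M : Type*} [AddCommMonoid M] (σ : α) (g : (α → ℕ) → M) : (α → ℕ) → List α → M
  | _, [] => 0
  | r, a :: w => (if a = σ then g r else 0) + wsum σ g (bump r a) w

theorem bump_self (r : α → ℕ) (a : α) : bump r a a = r a + 1 := by simp [bump]

theorem bump_ne (r : α → ℕ) {a b : α} (h : b ≠ a) : bump r a b = r b := by simp [bump, h]

/-- number of occurrences of letters of `S` -/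
def sS (S : Finset α) (r : α → ℕ) : ℕ := ∑ b ∈ S, r b

theorem sS_bump (S : Finset α) (r : α → ℕ) (a : α) :
    sS S (bump r a) = sS S r + if a ∈ S then 1 else 0 := by
  simp [sS, bump, Finset.sum_add_distrib]

/-- the cyclic counter of the letters of `S` -/
def stp (S : Finset α) {n : ℕ} (q : ZMod n) (a : α) : ZMod n := if a ∈ S then q + 1 else q

/-- transitions into `c` are marked -/
def mk1 (S : Finset α) {n : ℕ} (c : ZMod n) (q : ZMod n) (a : α) : Bool :=
  decide (stp S q a = c)

/-- transitions into `c` with a letter other than `σ` are marked -/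
def mk2 (S : Finset α) (σ : α) {n : ℕ} (c : ZMod n) (q : ZMod n) (a : α) : Bool :=
  decide (stp S q a = c ∧ a ≠ σ)

/-- rank function -/
def rnk {n : ℕ} (c : ZMod n) (q : ZMod n) : ℕ := if q = c then n else (c - q).val

theorem rnk_lt {n : ℕ} [NeZero n] (c q : ZMod n) (h : q + 1 ≠ c) : rnk c (q + 1) < rnk c q := by
  rw [rnk, if_neg h, rnk]
  split_ifs with hq
  · exact ZMod.val_lt _
  · have hx : c - q ≠ 0 := fun h0 => hq (sub_eq_zero.1 h0).symm
    have hv : (c - q).val ≠ 0 := by
      intro h0
      exact hx ((ZMod.val_eq_zero _).1 h0)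
    have h1 : c - (q + 1) = (((c - q).val - 1 : ℕ) : ZMod n) := by
      rw [Nat.cast_sub (Nat.one_le_iff_ne_zero.2 hv), ZMod.natCast_zmod_val]
      push_cast
      ring
    rw [h1, ZMod.val_natCast_of_lt]
    · omega
    · exact lt_of_le_of_lt (Nat.sub_le _ _) (ZMod.val_lt _)

theorem mk1_PP [Finite α] (S : Finset α) {n : ℕ} [NeZero n] (c q q' : ZMod n) :
    Hgt 0 (PP (stp S) (mk1 S c) q q') := by
  refine PP_hgt _ _ (rnk c) ?_ q q'
  intro q a h
  have h' : stp S q a ≠ c := by simpa [mk1] using h
  by_cases ha : a ∈ S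
  · right
    simp only [stp, if_pos ha] at h' ⊢
    exact rnk_lt c q h'
  · left
    simp [stp, ha]

theorem mk2_PP [Finite α] (S : Finset α) {σ : α} (hσ : σ ∉ S) {n : ℕ} [NeZero n]
    (c q q' : ZMod n) : Hgt 0 (PP (stp S) (mk2 S σ c) q q') := by
  refine PP_hgt _ _ (rnk c) ?_ q q'
  intro q a h
  have h' : stp S q a = c → a = σ := by simpa [mk2] using h
  by_cases ha : a ∈ S
  · right
    have h2 : stp S q a ≠ c := by
      intro h3
      exact hσ ((h' h3) ▸ ha)
    simp only [stp, if_pos ha] at h2 ⊢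
    exact rnk_lt c q h2
  · left
    simp [stp, ha]

theorem mk1_count [Finite α] (S : Finset α) {n : ℕ} [NeZero n] (c q : ZMod n) (N : ℕ)
    [NeZero N] : CompT (fun w => (cnt (stp S) (mk1 S c) q w : ZMod N)) :=
  cnt_mod _ _ c (fun q a h => by simpa [mk1] using h) N (mk1_PP S c) q

theorem mk2_count [Finite α] (S : Finset α) {σ : α} (hσ : σ ∉ S) {n : ℕ} [NeZero n]
    (c q : ZMod n) (N : ℕ) [NeZero N] :
    CompT (fun w => (cnt (stp S) (mk2 S σ c) q w : ZMod N)) :=
  cnt_mod _ _ c (fun q a h => by
    have : stp S q a = c ∧ a ≠ σ := by simpa [mk2] using h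
    exact this.1) N (mk2_PP S hσ c) q

theorem cnt_event (S : Finset α) {σ : α} (hσ : σ ∉ S) {n : ℕ} (c : ZMod n)
    (r : α → ℕ) (w : List α) :
    cnt (stp S) (mk1 S c) (sS S r : ZMod n) w =
      cnt (stp S) (mk2 S σ c) (sS S r : ZMod n) w +
        wsum σ (fun r => if (sS S r : ZMod n) = c then 1 else 0) r w := by
  induction w generalizing r with
  | nil => rfl
  | cons a w ih =>
    have hst : stp S (sS S r : ZMod n) a = (sS S (bump r a) : ZMod n) := by
      rw [sS_bump, stp]
      split_ifs <;> simp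
    simp only [cnt, wsum]
    rw [hst, ih (bump r a)]
    have key : (if mk1 S c (sS S r : ZMod n) a = true then 1 else 0) =
        (if mk2 S σ c (sS S r : ZMod n) a = true then 1 else 0) +
          (if a = σ then (if (sS S r : ZMod n) = c then 1 else 0) else 0) := by
      by_cases ha : a = σ
      · subst ha
        simp [mk1, mk2, stp, hσ]
      · simp [mk1, mk2, ha]
    rw [key]
    ring

theorem wsum_add {M : Type*} [AddCommMonoid M] (σ : α) (g h : (α → ℕ) → M) (r : α → ℕ)
    (w : List α) : wsum σ (fun r => g r + h r) r w = wsum σ g r w + wsum σ h r w := by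
  induction w generalizing r with
  | nil => simp [wsum]
  | cons a w ih =>
    simp only [wsum, ih]
    split_ifs
    · rw [add_add_add_comm]
    · simp

theorem wsum_zero {M : Type*} [AddCommMonoid M] (σ : α) (r : α → ℕ)
    (w : List α) : wsum σ (fun _ => (0 : M)) r w = 0 := by
  induction w generalizing r with
  | nil => rfl
  | cons a w ih => simp [wsum, ih]

theorem wsum_finset_sum {M ι : Type*} [AddCommMonoid M] (σ : α) (s : Finset ι)
    (g : ι → (α → ℕ) → M) (r : α → ℕ) (w : List α) :
    wsum σ (fun r => ∑ i ∈ s, g i r) r w = ∑ i ∈ s, wsum σ (g i) r w := by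
  classical
  induction s using Finset.induction_on with
  | empty => simp [wsum_zero]
  | insert a s ha ih =>
    simp only [Finset.sum_insert ha]
    rw [wsum_add, ih]

theorem wsum_map {M M' : Type*} [AddCommMonoid M] [AddCommMonoid M'] (f : M →+ M') (σ : α)
    (g : (α → ℕ) → M) (r : α → ℕ) (w : List α) :
    f (wsum σ g r w) = wsum σ (fun r => f (g r)) r w := by
  induction w generalizing r with
  | nil => simp [wsum]
  | cons a w ih =>
    simp only [wsum, map_add, ih]
    congr 1
    split_ifs <;> simp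

theorem wsum_congr {M : Type*} [AddCommMonoid M] {σ : α} {g h : (α → ℕ) → M}
    (H : ∀ r, g r = h r) (r : α → ℕ) (w : List α) : wsum σ g r w = wsum σ h r w := by
  have : g = h := funext H
  rw [this]

/-- `CW N σ g`: the sum of `g` over the occurrences of `σ`, modulo `N`, is computable. -/
def CW (N : ℕ) (σ : α) (g : (α → ℕ) → ZMod N) : Prop := CompT (fun w => wsum σ g 0 w)

theorem CW.add {N : ℕ} [NeZero N] {σ : α} {g h : (α → ℕ) → ZMod N} (hg : CW N σ g)
    (hh : CW N σ h) : CW N σ (fun r => g r + h r) := by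
  have := (hg.prodMk hh).map (fun p => p.1 + p.2)
  unfold CW
  simp only [wsum_add]
  exact this

theorem CW.mul_left {N : ℕ} [NeZero N] {σ : α} {g : (α → ℕ) → ZMod N} (hg : CW N σ g)
    (k : ZMod N) : CW N σ (fun r => k * g r) := by
  have := hg.map (fun p => k * p)
  unfold CW
  have h2 : ∀ w, wsum σ (fun r => k * g r) 0 w = k * wsum σ g 0 w := by
    intro w
    exact (wsum_map (AddMonoidHom.mulLeft k) σ g 0 w).symm
  simp only [h2]
  exact this

theorem CW.sub {N : ℕ} [NeZero N] {σ : α} {g h : (α → ℕ) → ZMod N} (hg : CW N σ g)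
    (hh : CW N σ h) : CW N σ (fun r => g r - h r) := by
  have := hg.add (hh.mul_left (-1))
  have h2 : (fun r => g r - h r) = (fun r => g r + -1 * h r) := by
    funext r; ring
  rw [h2]; exact this

theorem CW.finset_sum {N : ℕ} [NeZero N] {σ : α} {ι : Type*} (s : Finset ι)
    (g : ι → (α → ℕ) → ZMod N) (h : ∀ i ∈ s, CW N σ (g i)) :
    CW N σ (fun r => ∑ i ∈ s, g i r) := by
  classical
  induction s using Finset.induction_on with
  | empty =>
    unfold CW
    simp only [Finset.sum_empty, wsum_zero]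
    exact CompT.const 0
  | insert a s ha ih =>
    simp only [Finset.sum_insert ha]
    exact (h a (Finset.mem_insert_self a s)).add
      (ih fun i hi => h i (Finset.mem_insert_of_mem hi))

theorem CW_ind [Finite α] (N : ℕ) [NeZero N] (S : Finset α) {σ : α} (hσ : σ ∉ S) {n : ℕ}
    [NeZero n] (c : ZMod n) : CW N σ (fun r => if (sS S r : ZMod n) = c then 1 else 0) := by
  have h1 := mk1_count S c ((sS S (0 : α → ℕ) : ℕ) : ZMod n) N
  have h2 := mk2_count S hσ c ((sS S (0 : α → ℕ) : ℕ) : ZMod n) N
  have h3 := (h1.prodMk h2).map (fun p => p.1 - p.2)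
  unfold CW
  have h4 : (fun w : List α => wsum σ (fun r => if (sS S r : ZMod n) = c then (1 : ZMod N)
      else 0) 0 w) = fun w => (cnt (stp S) (mk1 S c) ((sS S (0 : α → ℕ) : ℕ) : ZMod n) w : ZMod N)
        - (cnt (stp S) (mk2 S σ c) ((sS S (0 : α → ℕ) : ℕ) : ZMod n) w : ZMod N) := by
    funext w
    rw [cnt_event S hσ c 0 w, Nat.cast_add, add_sub_cancel_left]
    have := wsum_map (Nat.castAddMonoidHom (ZMod N)) σ
      (fun r => if (sS S r : ZMod n) = c then 1 else 0) 0 w
    rw [Nat.coe_castAddMonoidHom] at this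
    rw [this]
    apply wsum_congr
    intro r
    split_ifs <;> simp
  rw [h4]
  exact h3

theorem CW_per [Finite α] (N : ℕ) [NeZero N] (S : Finset α) {σ : α} (hσ : σ ∉ S) {n : ℕ}
    [NeZero n] (h : ZMod n → ZMod N) : CW N σ (fun r => h (sS S r : ZMod n)) := by
  have h1 := CW.finset_sum (N := N) (σ := σ) (Finset.univ : Finset (ZMod n))
    (fun c r => h c * if (sS S r : ZMod n) = c then 1 else 0)
    (fun c _ => (CW_ind N S hσ c).mul_left (h c))
  have h2 : (fun r : α → ℕ => ∑ c : ZMod n, h c * (if (sS S r : ZMod n) = c then (1 : ZMod N)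
      else 0)) = fun r => h (sS S r : ZMod n) := by
    funext r
    simp
  rw [h2] at h1
  exact h1

theorem choose_two_mod {N x y : ℕ} (h : (x : ZMod (2 * N)) = (y : ZMod (2 * N))) :
    (x.choose 2 : ZMod N) = (y.choose 2 : ZMod N) := by
  rw [ZMod.natCast_eq_natCast_iff] at h ⊢
  have key : ∀ z : ℕ, 2 * z.choose 2 + z = z * z := by
    intro z
    induction z with
    | zero => rfl
    | succ z ih =>
      rw [Nat.choose_succ_succ' z 1, Nat.choose_one_right]
      nlinarith
  have h1 : 2 * x.choose 2 + x ≡ 2 * y.choose 2 + y [MOD 2 * N] := by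
    rw [key, key]; exact h.mul h
  have h2 : 2 * x.choose 2 ≡ 2 * y.choose 2 [MOD 2 * N] := Nat.ModEq.add_right_cancel h h1
  exact Nat.ModEq.mul_left_cancel' (by norm_num) h2

theorem choose_two_add (x y : ℕ) : (x + y).choose 2 = x.choose 2 + y.choose 2 + x * y := by
  induction y with
  | zero => simp
  | succ y ih =>
    have h1 : (x + (y + 1)).choose 2 = (x + y).choose 1 + (x + y).choose 2 :=
      Nat.choose_succ_succ' (x + y) 1
    have h2 : (y + 1).choose 2 = y.choose 1 + y.choose 2 := Nat.choose_succ_succ' y 1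
    rw [h1, h2, ih, Nat.choose_one_right, Nat.choose_one_right]
    ring

/-- periodic version of `choose 2` -/
def ch2 (N : ℕ) (z : ZMod (2 * N)) : ZMod N := (z.val.choose 2 : ZMod N)

theorem ch2_cast (N : ℕ) (x : ℕ) [NeZero N] :
    ch2 N (x : ZMod (2 * N)) = (x.choose 2 : ZMod N) := by
  rw [ch2]
  apply choose_two_mod
  have : NeZero (2 * N) := ⟨by have := NeZero.ne N; omega⟩
  rw [ZMod.natCast_zmod_val]

theorem CW_one [Finite α] (N : ℕ) [NeZero N] (σ : α) : CW N σ (fun _ => 1) :=
  CW_per N (∅ : Finset α) (σ := σ) (by simp) (n := 1) (fun _ => 1)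

theorem CW_lin [Finite α] (N : ℕ) [NeZero N] {σ l : α} (h : l ≠ σ) :
    CW N σ (fun r => (r l : ZMod N)) := by
  have h1 := CW_per N ({l} : Finset α) (σ := σ) (by simpa using h.symm) (n := N) (fun z => z)
  simpa [sS] using h1

theorem CW_ch [Finite α] (N : ℕ) [NeZero N] (S : Finset α) {σ : α} (h : σ ∉ S) :
    CW N σ (fun r => ((sS S r).choose 2 : ZMod N)) := by
  have : NeZero (2 * N) := ⟨by have := NeZero.ne N; omega⟩
  have h1 := CW_per N S (σ := σ) h (n := 2 * N) (ch2 N)
  simpa only [ch2_cast] using h1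

theorem CW_ch1 [Finite α] (N : ℕ) [NeZero N] {σ l : α} (h : l ≠ σ) :
    CW N σ (fun r => ((r l).choose 2 : ZMod N)) := by
  have h1 := CW_ch N ({l} : Finset α) (σ := σ) (by simpa using h.symm)
  simpa [sS] using h1

theorem CW_mul_ne [Finite α] (N : ℕ) [NeZero N] {σ l m : α} (hl : l ≠ σ) (hm : m ≠ σ)
    (hlm : l ≠ m) : CW N σ (fun r => ((r l * r m : ℕ) : ZMod N)) := by
  have h1 := CW_ch N ({l, m} : Finset α) (σ := σ) (by simp [hl.symm, hm.symm])
  have h2 := (h1.sub (CW_ch1 N hl)).sub (CW_ch1 N hm)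
  have h3 : (fun r : α → ℕ => (((sS {l, m} r).choose 2 : ℕ) : ZMod N) -
      (((r l).choose 2 : ℕ) : ZMod N) - (((r m).choose 2 : ℕ) : ZMod N)) =
      fun r => ((r l * r m : ℕ) : ZMod N) := by
    funext r
    have : sS {l, m} r = r l + r m := by simp [sS, Finset.sum_pair hlm]
    rw [this, choose_two_add]
    push_cast
    ring
  rw [h3] at h2
  exact h2

/-! own counts -/

theorem fin_eq (r : α → ℕ) (w : List α) (b : α) :
    fin r w b = r b + wsum b (fun _ => 1) r w := by
  induction w generalizing r with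
  | nil => simp [fin, wsum]
  | cons a w ih =>
    rw [fin, ih, wsum, bump]
    by_cases h : a = b
    · simp [h]; ring
    · simp [h, Ne.symm h]

theorem comp_fin [Finite α] (N : ℕ) [NeZero N] (b : α) :
    CompT (fun w => (fin 0 w b : ZMod N)) := by
  have h := CW_one N b
  unfold CW at h
  have h2 : (fun w : List α => (fin 0 w b : ZMod N)) =
      fun w => wsum b (fun _ => (1 : ZMod N)) 0 w := by
    funext w
    rw [fin_eq]
    have := wsum_map (Nat.castAddMonoidHom (ZMod N)) b (fun _ => 1) 0 w
    rw [Nat.coe_castAddMonoidHom] at this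
    simp [this]
  rw [h2]
  exact h

theorem own_identity {σ c : α} (h : c ≠ σ) (r : α → ℕ) (w : List α) :
    r c * (r σ).choose 2 + (wsum σ (fun r => r σ * r c) r w +
      wsum c (fun r => (r σ).choose 2) r w) = fin r w c * (fin r w σ).choose 2 := by
  induction w generalizing r with
  | nil => simp [fin, wsum]
  | cons a w ih =>
    rw [fin, ← ih (bump r a)]
    simp only [wsum]
    by_cases h1 : a = σ
    · subst h1
      have h2 : (r a + 1).choose 2 = r a + (r a).choose 2 := by
        rw [Nat.choose_succ_succ' (r a) 1, Nat.choose_one_right]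
      simp only [if_true, if_neg h.symm, bump_self, bump_ne r h, h2]
      ring
    · by_cases h2 : a = c
      · subst h2
        simp only [if_true, if_neg h1, bump_self, bump_ne r (Ne.symm h1)]
        ring
      · simp only [if_neg h1, if_neg h2, bump_ne r (Ne.symm h1), bump_ne r (Ne.symm h2)]
        ring

theorem CW_mul_own [Finite α] (N : ℕ) [NeZero N] {σ c : α} (h : c ≠ σ) :
    CW N σ (fun r => ((r σ * r c : ℕ) : ZMod N)) := by
  have : NeZero (2 * N) := ⟨by have := NeZero.ne N; omega⟩
  have h1 := CW_ch1 N (σ := c) (l := σ) h.symm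
  have h2 := comp_fin N c
  have h3 := comp_fin (2 * N) σ
  have h4 := ((h2.prodMk h3).prodMk h1).map (fun p => p.1.1 * ch2 N p.1.2 - p.2)
  unfold CW
  have h5 : (fun w : List α => wsum σ (fun r => ((r σ * r c : ℕ) : ZMod N)) 0 w) =
      fun w => (fin 0 w c : ZMod N) * ch2 N (fin 0 w σ : ZMod (2 * N)) -
        wsum c (fun r => (((r σ).choose 2 : ℕ) : ZMod N)) 0 w := by
    funext w
    rw [ch2_cast]
    have key := own_identity h 0 w
    have key2 := congrArg (Nat.cast : ℕ → ZMod N) key
    push_cast at key2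
    have e1 := wsum_map (Nat.castAddMonoidHom (ZMod N)) σ (fun r => r σ * r c) 0 w
    have e2 := wsum_map (Nat.castAddMonoidHom (ZMod N)) c (fun r => (r σ).choose 2) 0 w
    rw [Nat.coe_castAddMonoidHom] at e1 e2
    rw [e1, e2] at key2
    rw [← key2]
    simp
  rw [h5]
  exact h4

theorem CW_mul [Finite α] (N : ℕ) [NeZero N] {σ l m : α} (hlm : l ≠ m) (hm : m ≠ σ) :
    CW N σ (fun r => ((r l * r m : ℕ) : ZMod N)) := by
  by_cases h : l = σ
  · subst h
    exact CW_mul_own N hm
  · exact CW_mul_ne N h hm hlm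

end Vale.Agent.P329
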