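import Vale.Agent.P329.Event

/-!
Products over the letters of a word of elements of a finite abelian group depending
polynomially on the letter counts of the prefix; application to nilpotent groups of class
at most three.
-/

namespace Vale.Agent.P329

open scoped commutatorElement

universe u v

variable {α : Type u} [DecidableEq α]

section abelian

variable {A : Type v} [CommGroup A]

/-- the product of `h` (letter, counts of the prefix) over all letters of the word -/
def wprod (h : α → (α → ℕ) → A) : (α → ℕ) → List α → A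
  | _, [] => 1
  | r, a :: w => h a r * wprod h (bump r a) w

theorem wprod_mul (g h : α → (α → ℕ) → A) (r : α → ℕ) (w : List α) :
    wprod (fun a r => g a r * h a r) r w = wprod g r w * wprod h r w := by
  induction w generalizing r with
  | nil => simp [wprod]
  | cons a w ih => simp only [wprod, ih, mul_mul_mul_comm]

omit [DecidableEq α] in
theorem list_prod_pow {ι : Type*} (l : List ι) (g : ι → A) (n : ℕ) :
    (l.map g).prod ^ n = (l.map fun i => g i ^ n).prod := by
  induction l with
  | nil => simp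
  | cons a l ih => simp [mul_pow, ih]

theorem wprod_one (r : α → ℕ) (w : List α) :
    wprod (fun (_ : α) (_ : α → ℕ) => (1 : A)) r w = 1 := by
  induction w generalizing r with
  | nil => rfl
  | cons a w ih => simp [wprod, ih]

/-- the product is computable -/
def Good (h : α → (α → ℕ) → A) : Prop := CompT (fun w => wprod h 0 w)

theorem Good.mul [Finite A] {g h : α → (α → ℕ) → A} (hg : Good g) (hh : Good h) :
    Good (fun a r => g a r * h a r) := by
  have := (hg.prodMk hh).map (fun p => p.1 * p.2)
  unfold Good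
  simp only [wprod_mul]
  exact this

theorem Good.one : Good (fun (_ : α) (_ : α → ℕ) => (1 : A)) := by
  unfold Good
  simp only [wprod_one]
  exact CompT.const 1

theorem Good.finset_prod [Finite A] {ι : Type*} (s : Finset ι) (g : ι → α → (α → ℕ) → A)
    (h : ∀ i ∈ s, Good (g i)) : Good (fun a r => ∏ i ∈ s, g i a r) := by
  classical
  induction s using Finset.induction_on with
  | empty => simpa using Good.one
  | insert a s ha ih =>
    simp only [Finset.prod_insert ha]
    exact (h a (Finset.mem_insert_self a s)).mul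
      (ih fun i hi => h i (Finset.mem_insert_of_mem hi))

/-- the product over the occurrences of the letter `j` is computable -/
def GoodAt (j : α) (f : (α → ℕ) → A) : Prop := Good (fun b r => if b = j then f r else 1)

theorem GoodAt.mul [Finite A] {j : α} {f g : (α → ℕ) → A} (hf : GoodAt j f)
    (hg : GoodAt j g) : GoodAt j (fun r => f r * g r) := by
  have := Good.mul hf hg
  unfold GoodAt
  have e : (fun (b : α) (r : α → ℕ) => if b = j then f r * g r else 1) =
      fun b r => (if b = j then f r else 1) * (if b = j then g r else 1) := by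
    funext b r
    split_ifs <;> simp
  rw [e]
  exact this

theorem GoodAt.one (j : α) : GoodAt j (fun _ => (1 : A)) := by
  unfold GoodAt
  simpa using Good.one

theorem GoodAt.congr {j : α} {f g : (α → ℕ) → A} (hf : GoodAt j f) (h : ∀ r, g r = f r) :
    GoodAt j g := by
  have : g = f := funext h
  rw [this]; exact hf

theorem GoodAt.list_prod [Finite A] {j : α} {ι : Type*} (l : List ι)
    (g : ι → (α → ℕ) → A) (h : ∀ i ∈ l, GoodAt j (g i)) :
    GoodAt j (fun r => (l.map fun i => g i r).prod) := by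
  induction l with
  | nil => exact (GoodAt.one j).congr (fun r => by simp)
  | cons a l ih =>
    refine ((h a List.mem_cons_self).mul
      (ih fun i hi => h i (List.mem_cons_of_mem _ hi))).congr fun r => by simp

theorem Good.of_at [Finite α] [Finite A] {h : α → (α → ℕ) → A} (H : ∀ j, GoodAt j (h j)) :
    Good h := by
  have := Fintype.ofFinite α
  have h1 := Good.finset_prod (Finset.univ : Finset α)
    (fun j b r => if b = j then h j r else 1) (fun j _ => H j)
  have h2 : (fun (a : α) (r : α → ℕ) => ∏ i : α, if a = i then h i r else 1) = h := by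
    funext a r
    simp
  rw [h2] at h1
  exact h1

theorem wprod_pow (j : α) (a : A) (q : (α → ℕ) → ℕ) (r : α → ℕ) (w : List α) :
    wprod (fun b r => if b = j then a ^ q r else 1) r w = a ^ wsum j q r w := by
  induction w generalizing r with
  | nil => simp [wprod, wsum]
  | cons b w ih =>
    simp only [wprod, wsum, ih]
    split_ifs
    · rw [pow_add]
    · simp

theorem GoodAt.pow [Finite A] {j : α} (a : A) (q : (α → ℕ) → ℕ)
    (hq : CW (Nat.card A) j (fun r => (q r : ZMod (Nat.card A)))) :
    GoodAt j (fun r => a ^ q r) := by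
  have : NeZero (Nat.card A) := ⟨Nat.card_pos.ne'⟩
  unfold GoodAt Good
  have h1 := CompT.map (T := ZMod (Nat.card A)) hq (fun z => a ^ z.val)
  have h2 : (fun w : List α => wprod (fun b r => if b = j then a ^ q r else 1) 0 w) =
      fun w => a ^ (wsum j (fun r => (q r : ZMod (Nat.card A))) 0 w).val := by
    funext w
    rw [wprod_pow]
    have e1 := wsum_map (Nat.castAddMonoidHom (ZMod (Nat.card A))) j q 0 w
    rw [Nat.coe_castAddMonoidHom] at e1
    rw [← e1, ZMod.val_natCast, pow_mod_natCard]
  rw [h2]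
  exact h1

end abelian

section list

variable {G : Type v} [Group G] (x : α → G)

/-- ordered product of powers of the letters in `L` -/
def sL (L : List α) (r : α → ℕ) : G := (L.map fun a => x a ^ r a).prod

theorem sL_append (L M : List α) (r : α → ℕ) : sL x (L ++ M) r = sL x L r * sL x M r := by
  simp [sL]

theorem sL_cons (a : α) (M : List α) (r : α → ℕ) :
    sL x (a :: M) r = x a ^ r a * sL x M r := by
  simp [sL]

theorem sL_bump_not_mem {L : List α} {j : α} (h : j ∉ L) (r : α → ℕ) :
    sL x L (bump r j) = sL x L r := by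
  unfold sL
  congr 1
  apply List.map_congr_left
  intro a ha
  have : a ≠ j := fun e => h (e ▸ ha)
  rw [bump_ne r this]

theorem comp_sL [Finite α] [Finite G] (L : List α) :
    CompT (fun w => sL x L (fin 0 w)) := by
  have : NeZero (Nat.card G) := ⟨Nat.card_pos.ne'⟩
  have h1 : CompT (fun w : List α => (fun a => (fin 0 w a : ZMod (Nat.card G)))) :=
    CompT.pi (T := fun _ : α => ZMod (Nat.card G)) fun a => comp_fin (Nat.card G) a
  have h2 := h1.map (fun z => (L.map fun a => x a ^ (z a).val).prod)
  have h3 : (fun w : List α => sL x L (fin 0 w)) =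
      fun w => (L.map fun a => x a ^ ((fin 0 w a : ZMod (Nat.card G))).val).prod := by
    funext w
    unfold sL
    congr 1
    apply List.map_congr_left
    intro a _
    rw [ZMod.val_natCast, pow_mod_natCard]
  rw [h3]
  exact h2

end list

section class3

variable {G : Type v} [Group G]

/-- elementwise consequences of nilpotency class at most three -/
structure Cl3 (G : Type v) [Group G] : Prop where
  comm : ∀ a ∈ commutator G, ∀ b ∈ commutator G, a * b = b * a
  cent : ∀ z : G, ∀ a ∈ commutator G, ∀ y : G, ⁅z, a⁆ * y = y * ⁅z, a⁆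

theorem mem_comm (y x : G) : ⁅y, x⁆ ∈ commutator G :=
  Subgroup.commutator_mem_commutator (Subgroup.mem_top _) (Subgroup.mem_top _)

theorem cl3_of_lcs (h : (⊤ : Subgroup G).lowerCentralSeries 3 = ⊥) : Cl3 G := by
  have h1 : (⊤ : Subgroup G).lowerCentralSeries 1 = commutator G :=
    Subgroup.top_lowerCentralSeries_one
  have h2 : (⊤ : Subgroup G).lowerCentralSeries 2 = ⁅commutator G, (⊤ : Subgroup G)⁆ := by
    rw [← h1]; rfl
  have h3 : ⁅⁅commutator G, (⊤ : Subgroup G)⁆, (⊤ : Subgroup G)⁆ = ⊥ := by
    rw [← h2, ← h]; rfl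
  have h3' : ⁅⁅(⊤ : Subgroup G), commutator G⁆, (⊤ : Subgroup G)⁆ = ⊥ := by
    rw [Subgroup.commutator_comm (⊤ : Subgroup G) (commutator G)]; exact h3
  refine ⟨?_, ?_⟩
  · have h4 : ⁅⁅(⊤ : Subgroup G), (⊤ : Subgroup G)⁆, commutator G⁆ = ⊥ :=
      Subgroup.commutator_commutator_eq_bot_of_rotate h3' h3
    intro a ha b hb
    have h5 : ⁅a, b⁆ ∈ ⁅⁅(⊤ : Subgroup G), (⊤ : Subgroup G)⁆, commutator G⁆ :=
      Subgroup.commutator_mem_commutator ha hb
    rw [h4, Subgroup.mem_bot, commutatorElement_eq_one_iff_mul_comm] at h5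
    exact h5
  · intro z a ha y
    have h5 : ⁅⁅z, a⁆, y⁆ ∈ ⁅⁅(⊤ : Subgroup G), commutator G⁆, (⊤ : Subgroup G)⁆ :=
      Subgroup.commutator_mem_commutator
        (Subgroup.commutator_mem_commutator (Subgroup.mem_top _) ha) (Subgroup.mem_top _)
    rw [h3', Subgroup.mem_bot, commutatorElement_eq_one_iff_mul_comm] at h5
    exact h5

/-- commutator as an element of the derived subgroup -/
def com (y x : G) : commutator G := ⟨⁅y, x⁆, mem_comm y x⟩

/-- double commutator as an element of the derived subgroup -/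
def bet (x z y : G) : commutator G := ⟨⁅z, ⁅y, x⁆⁆, mem_comm _ _⟩

theorem com_mul (H : Cl3 G) (x y₁ y₂ : G) :
    com (y₁ * y₂) x = bet x y₁ y₂ * com y₂ x * com y₁ x := by
  apply Subtype.ext
  show ⁅y₁ * y₂, x⁆ = ⁅y₁, ⁅y₂, x⁆⁆ * ⁅y₂, x⁆ * ⁅y₁, x⁆
  simp only [commutatorElement_def]
  group

theorem bet_mul_left (H : Cl3 G) (x z₁ z₂ y : G) :
    bet x (z₁ * z₂) y = bet x z₁ y * bet x z₂ y := by
  apply Subtype.ext
  show ⁅z₁ * z₂, ⁅y, x⁆⁆ = ⁅z₁, ⁅y, x⁆⁆ * ⁅z₂, ⁅y, x⁆⁆
  have h1 : ⁅z₁ * z₂, ⁅y, x⁆⁆ = z₁ * ⁅z₂, ⁅y, x⁆⁆ * z₁⁻¹ * ⁅z₁, ⁅y, x⁆⁆ := by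
    simp only [commutatorElement_def]
    group
  rw [h1, ← H.cent z₂ _ (mem_comm y x) z₁]
  rw [mul_assoc ⁅z₂, ⁅y, x⁆⁆, mul_inv_cancel, mul_one]
  exact H.cent z₂ _ (mem_comm y x) _

theorem com_right_mul (H : Cl3 G) (z : G) {a b : G} (ha : a ∈ commutator G)
    (hb : b ∈ commutator G) : ⁅z, a * b⁆ = ⁅z, a⁆ * ⁅z, b⁆ := by
  have h1 : ⁅z, a * b⁆ = ⁅z, a⁆ * (a * ⁅z, b⁆ * a⁻¹) := by
    simp only [commutatorElement_def]
    group
  rw [h1, ← H.cent z b hb a]
  rw [mul_assoc ⁅z, b⁆, mul_inv_cancel, mul_one]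

theorem com_right_bet (H : Cl3 G) (z x y₁ y₂ : G) : ⁅z, ⁅y₁, ⁅y₂, x⁆⁆⁆ = 1 := by
  rw [commutatorElement_eq_one_iff_mul_comm]
  exact (H.cent y₁ _ (mem_comm y₂ x) z).symm

theorem bet_mul_right (H : Cl3 G) (x z y₁ y₂ : G) :
    bet x z (y₁ * y₂) = bet x z y₁ * bet x z y₂ := by
  apply Subtype.ext
  show ⁅z, ⁅y₁ * y₂, x⁆⁆ = ⁅z, ⁅y₁, x⁆⁆ * ⁅z, ⁅y₂, x⁆⁆
  have h1 : ⁅y₁ * y₂, x⁆ = ⁅y₁, ⁅y₂, x⁆⁆ * (⁅y₂, x⁆ * ⁅y₁, x⁆) := by
    simp only [commutatorElement_def]
    group
  rw [h1, com_right_mul H z (mem_comm _ _) (mul_mem (mem_comm _ _) (mem_comm _ _)),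
    com_right_mul H z (mem_comm _ _) (mem_comm _ _), com_right_bet H, one_mul]
  exact H.cent z _ (mem_comm y₂ x) _

/-- the derived subgroup is commutative -/
@[reducible]
def commGroup (H : Cl3 G) : CommGroup (commutator G) :=
  { (inferInstance : Group (commutator G)) with
    mul_comm := fun a b => Subtype.ext (H.comm a a.2 b b.2) }

theorem bet_one_left (x y : G) : bet x 1 y = 1 := by
  apply Subtype.ext
  show ⁅(1 : G), ⁅y, x⁆⁆ = 1
  simp

theorem bet_one_right (x z : G) : bet x z 1 = 1 := by
  apply Subtype.ext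
  show ⁅z, ⁅(1 : G), x⁆⁆ = 1
  simp

theorem bet_pow_left (H : Cl3 G) (x z y : G) (n : ℕ) : bet x (z ^ n) y = bet x z y ^ n := by
  induction n with
  | zero => simp [bet_one_left]
  | succ n ih => rw [pow_succ, pow_succ, bet_mul_left H, ih]

theorem bet_pow_right (H : Cl3 G) (x z y : G) (n : ℕ) : bet x z (y ^ n) = bet x z y ^ n := by
  induction n with
  | zero => simp [bet_one_right]
  | succ n ih => rw [pow_succ, pow_succ, bet_mul_right H, ih]

variable (f : α → G)

theorem bet_sL_left (H : Cl3 G) (x y : G) (L : List α) (r : α → ℕ) :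
    bet x (sL f L r) y = (L.map fun i => bet x (f i) y ^ r i).prod := by
  induction L with
  | nil => simp [sL, bet_one_left]
  | cons a L ih => rw [sL_cons, bet_mul_left H, ih, bet_pow_left H]; simp

theorem bet_sL_right (H : Cl3 G) (x z : G) (L : List α) (r : α → ℕ) :
    bet x z (sL f L r) = (L.map fun i => bet x z (f i) ^ r i).prod := by
  induction L with
  | nil => simp [sL, bet_one_right]
  | cons a L ih => rw [sL_cons, bet_mul_right H, ih, bet_pow_right H]; simp

theorem com_pow (H : Cl3 G) (x y : G) (n : ℕ) :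
    com (y ^ n) x = com y x ^ n * bet x y y ^ (n.choose 2) := by
  letI := commGroup H
  induction n with
  | zero =>
    have : com (1 : G) x = 1 := by
      apply Subtype.ext
      show ⁅(1 : G), x⁆ = 1
      simp
    simp [this]
  | succ n ih =>
    rw [pow_succ, com_mul H, ih, bet_pow_left H, Nat.choose_succ_succ' n 1,
      Nat.choose_one_right, pow_succ, pow_add]
    calc bet x y y ^ n * com y x * (com y x ^ n * bet x y y ^ n.choose 2)
        = com y x ^ n * com y x * (bet x y y ^ n * bet x y y ^ n.choose 2) := by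
          rw [mul_comm (bet x y y ^ n) (com y x), mul_assoc, mul_left_comm (bet x y y ^ n),
            ← mul_assoc, mul_comm (com y x) (com y x ^ n)]
      _ = _ := rfl

section main

variable [Finite α] [Finite G]

/-- products over occurrences of `j` with values in the derived subgroup -/
theorem goodAt_bet (H : Cl3 G) (x : G) (j : α) (L M : List α)
    (hM : ∀ m ∈ M, m ≠ j) (hLM : ∀ l ∈ L, ∀ m ∈ M, l ≠ m) :
    letI := commGroup H
    GoodAt j (fun r => bet x (sL f L r) (sL f M r)) := by
  letI := commGroup H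
  have : NeZero (Nat.card (commutator G)) := ⟨Nat.card_pos.ne'⟩
  have h1 : ∀ r : α → ℕ, bet x (sL f L r) (sL f M r) =
      (L.map fun l => (M.map fun m => bet x (f l) (f m) ^ (r l * r m)).prod).prod := by
    intro r
    rw [bet_sL_left f H]
    congr 1
    apply List.map_congr_left
    intro l _
    rw [bet_sL_right f H, list_prod_pow]
    congr 1
    apply List.map_congr_left
    intro m _
    rw [← pow_mul, Nat.mul_comm]
  refine GoodAt.congr ?_ h1
  refine GoodAt.list_prod L _ fun l hl => GoodAt.list_prod M _ fun m hm => ?_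
  exact GoodAt.pow _ _ (CW_mul _ (hLM l hl m hm) (hM m hm))

theorem goodAt_com (H : Cl3 G) (x : G) (j : α) (M : List α) (hM : ∀ m ∈ M, m ≠ j)
    (hnd : M.Nodup) :
    letI := commGroup H
    GoodAt j (fun r => com (sL f M r) x) := by
  letI := commGroup H
  have : NeZero (Nat.card (commutator G)) := ⟨Nat.card_pos.ne'⟩
  induction M with
  | nil =>
    refine (GoodAt.one j).congr fun r => ?_
    apply Subtype.ext
    show ⁅sL f [] r, x⁆ = 1
    simp [sL]
  | cons a M ih =>
    have ha : a ≠ j := hM a List.mem_cons_self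
    have hnd' := List.nodup_cons.1 hnd
    have h1 := ih (fun m hm => hM m (List.mem_cons_of_mem _ hm)) hnd'.2
    have h2 := goodAt_bet f H x j [a] M (fun m hm => hM m (List.mem_cons_of_mem _ hm))
      (fun l hl m hm => by
        rw [List.mem_singleton] at hl
        subst hl
        intro e
        exact hnd'.1 (e ▸ hm))
    have h3 : GoodAt j (fun r : α → ℕ => com (f a) x ^ r a) :=
      GoodAt.pow _ _ (CW_lin _ ha)
    have h4 : GoodAt j (fun r : α → ℕ => bet x (f a) (f a) ^ (r a).choose 2) :=
      GoodAt.pow _ _ (CW_ch1 _ ha)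
    refine ((h2.mul h1).mul (h3.mul h4)).congr fun r => ?_
    rw [sL_cons, com_mul H, com_pow H]
    simp [sL]

/-- the increment of the collection process -/
def incr (L : List α) (j : α) (r : α → ℕ) : G :=
  sL f L r * f j * (sL f L (bump r j))⁻¹

theorem incr_eq (L₁ L₂ : List α) (j : α) (h₁ : j ∉ L₁) (h₂ : j ∉ L₂) (r : α → ℕ) :
    incr f (L₁ ++ j :: L₂) j r =
      ((bet (f j) (sL f (L₁ ++ [j]) r) (sL f L₂ r) * com (sL f L₂ r) (f j) :
        commutator G) : G) := by
  show sL f (L₁ ++ j :: L₂) r * f j * (sL f (L₁ ++ j :: L₂) (bump r j))⁻¹ =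
    ⁅sL f (L₁ ++ [j]) r, ⁅sL f L₂ r, f j⁆⁆ * ⁅sL f L₂ r, f j⁆
  have e1 : sL f [j] r = f j ^ r j := by simp [sL]
  rw [sL_append, sL_append, sL_append, sL_cons, sL_cons, sL_bump_not_mem f h₁,
    sL_bump_not_mem f h₂, bump_self, e1, pow_succ]
  simp only [commutatorElement_def]
  group

theorem goodAt_incr (H : Cl3 G) (L : List α) (hnd : L.Nodup) (j : α) (hj : j ∈ L) :
    letI := commGroup H
    ∃ h : (α → ℕ) → commutator G, (∀ r, ((h r : commutator G) : G) = incr f L j r) ∧
      GoodAt j h := by
  letI := commGroup H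
  obtain ⟨L₁, L₂, rfl⟩ := List.append_of_mem hj
  rw [List.nodup_append] at hnd
  obtain ⟨hn1, hn2, hn3⟩ := hnd
  rw [List.nodup_cons] at hn2
  have h₁ : j ∉ L₁ := fun h => hn3 j h j List.mem_cons_self rfl
  refine ⟨_, fun r => (incr_eq f L₁ L₂ j h₁ hn2.1 r).symm, ?_⟩
  refine GoodAt.mul ?_ ?_
  · refine goodAt_bet f H (f j) j (L₁ ++ [j]) L₂ (fun m hm e => hn2.1 (e ▸ hm)) ?_
    intro l hl m hm e
    rw [List.mem_append, List.mem_singleton] at hl
    rcases hl with hl | hl
    · exact hn3 l hl m (List.mem_cons_of_mem _ hm) e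
    · subst hl; exact hn2.1 (e ▸ hm)
  · exact goodAt_com f H (f j) j L₂ (fun m hm e => hn2.1 (e ▸ hm)) hn2.2

theorem word_eq (H : Cl3 G) (L : List α) (h : α → (α → ℕ) → commutator G)
    (hh : ∀ j r, ((h j r : commutator G) : G) = incr f L j r) (r : α → ℕ) (w : List α) :
    letI := commGroup H
    sL f L r * (w.map f).prod = ((wprod h r w : commutator G) : G) * sL f L (fin r w) := by
  letI := commGroup H
  induction w generalizing r with
  | nil => simp [wprod, fin]
  | cons a w ih =>
    have e1 : ((wprod h r (a :: w) : commutator G) : G) =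
        (h a r : G) * ((wprod h (bump r a) w : commutator G) : G) := rfl
    rw [e1, fin, mul_assoc, ← ih (bump r a), hh, incr, List.map_cons, List.prod_cons]
    group

theorem comp_word (H : Cl3 G) : CompT (fun w : List α => (w.map f).prod) := by
  letI := commGroup H
  have := Fintype.ofFinite α
  set L : List α := Finset.univ.toList with hL
  have hnd : L.Nodup := Finset.nodup_toList _
  have hmem : ∀ j : α, j ∈ L := fun j => by simp [hL]
  choose h hh hg using fun j => goodAt_incr f H L hnd j (hmem j)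
  have h1 : Good h := Good.of_at hg
  have h2 := comp_sL f L
  have h3 := (CompT.prodMk (T := commutator G) h1 h2).map (fun p => (p.1 : G) * p.2)
  have h4 : (fun w : List α => (w.map f).prod) =
      fun w => ((wprod h 0 w : commutator G) : G) * sL f L (fin 0 w) := by
    funext w
    rw [← word_eq f H L h hh 0 w]
    have : sL f L (0 : α → ℕ) = 1 := by
      unfold sL
      have : (L.map fun a => f a ^ (0 : α → ℕ) a) = L.map fun _ => 1 := by
        apply List.map_congr_left
        intro a _
        simp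
      rw [this]
      simp
    rw [this, one_mul]
  rw [h4]
  exact h3

end main

end class3

end Vale.Agent.P329
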