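import Vale.Agent.P329.Basic

/-!
The number of marked transitions of a finite automaton, modulo `N`, has fibres of generalized
star height at most one, provided that all marked transitions lead to the same state and the
automaton without the marked transitions is (weakly) acyclic.
-/

namespace Vale.Agent.P329

universe u v

variable {α : Type u} {Q : Type v} (step : Q → α → Q) (mark : Q → α → Bool)

/-- number of marked transitions while reading a word -/
def cnt : Q → List α → ℕ
  | _, [] => 0
  | q, a :: w => (if mark q a = true then 1 else 0) + cnt (step q a) w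

/-- the state reached -/
def run : Q → List α → Q
  | q, [] => q
  | q, a :: w => run (step q a) w

/-- words read from `q` to `q'` without marked transitions -/
def PP (q q' : Q) : Set (List α) := {w | cnt step mark q w = 0 ∧ run step q w = q'}

/-- words read from `q` without marked transitions -/
def TT (q : Q) : Set (List α) := {w | cnt step mark q w = 0}

/-- words read from `q` whose last transition is their only marked transition -/
def FF (q : Q) : Set (List α) :=
  {w | ∃ v a, w = v ++ [a] ∧ cnt step mark q v = 0 ∧ mark (run step q v) a = true}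

theorem cnt_append (q : Q) (x y : List α) :
    cnt step mark q (x ++ y) = cnt step mark q x + cnt step mark (run step q x) y := by
  induction x generalizing q with
  | nil => simp [cnt, run]
  | cons a x ih => simp [cnt, run, ih, add_assoc]

theorem run_append (q : Q) (x y : List α) :
    run step q (x ++ y) = run step (run step q x) y := by
  induction x generalizing q with
  | nil => simp [run]
  | cons a x ih => simp [run, ih]

theorem loop_words (q : Q) (x y : List α)
    (hx : ∀ a ∈ x, mark q a = false ∧ step q a = q) :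
    cnt step mark q (x ++ y) = cnt step mark q y ∧ run step q (x ++ y) = run step q y := by
  induction x with
  | nil => simp
  | cons a x ih =>
    have h1 := hx a (List.mem_cons_self)
    have h2 := ih (fun b hb => hx b (List.mem_cons_of_mem _ hb))
    simp [cnt, run, h1.1, h1.2, h2.1, h2.2]

theorem PP_eq (q q' : Q) : PP step mark q q' =
    cat {w | ∀ a ∈ w, mark q a = false ∧ step q a = q}
      ({w | q = q' ∧ w ∈ ({[]} : Set (List α))} ∪
        ⋃ a : α, {w | (mark q a = false ∧ step q a ≠ q) ∧
          w ∈ cat {[a]} (PP step mark (step q a) q')}) := by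
  ext w
  constructor
  · intro hw
    induction w with
    | nil =>
      refine ⟨[], by simp, [], ?_, rfl⟩
      left
      exact ⟨hw.2, rfl⟩
    | cons a w ih =>
      obtain ⟨h1, h2⟩ := hw
      have hm : mark q a = false := by
        by_contra hm
        simp only [Bool.not_eq_false] at hm
        simp [cnt, hm] at h1
      have h1' : cnt step mark (step q a) w = 0 := by simpa [cnt, hm] using h1
      have h2' : run step (step q a) w = q' := by simpa [run] using h2
      by_cases hq : step q a = q
      · rw [hq] at h1' h2'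
        obtain ⟨x, hx, y, hy, rfl⟩ := ih ⟨h1', h2'⟩
        refine ⟨a :: x, ?_, y, hy, rfl⟩
        intro b hb
        rcases List.mem_cons.1 hb with rfl | hb
        · exact ⟨hm, hq⟩
        · exact hx b hb
      · refine ⟨[], by simp, a :: w, ?_, rfl⟩
        right
        refine Set.mem_iUnion.2 ⟨a, ⟨hm, hq⟩, [a], rfl, w, ⟨h1', h2'⟩, rfl⟩
  · rintro ⟨x, hx, y, hy, rfl⟩
    have hl := loop_words step mark q x y hx
    refine ⟨?_, ?_⟩
    · rw [hl.1]
      rcases hy with ⟨-, hy⟩ | hy
      · rw [Set.mem_singleton_iff.1 hy]; rfl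
      · obtain ⟨a, ⟨hm, -⟩, z, hz, t, ht, rfl⟩ := Set.mem_iUnion.1 hy
        rw [Set.mem_singleton_iff.1 hz]
        simp [cnt, hm, ht.1]
    · rw [hl.2]
      rcases hy with ⟨hq, hy⟩ | hy
      · rw [Set.mem_singleton_iff.1 hy]; exact hq
      · obtain ⟨a, ⟨hm, -⟩, z, hz, t, ht, rfl⟩ := Set.mem_iUnion.1 hy
        rw [Set.mem_singleton_iff.1 hz]
        simpa [run] using ht.2

theorem PP_hgt [Finite α] (rk : Q → ℕ)
    (hrk : ∀ q a, mark q a = false → step q a = q ∨ rk (step q a) < rk q) (q q' : Q) :
    Hgt 0 (PP step mark q q') := by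
  suffices H : ∀ n q, rk q ≤ n → Hgt 0 (PP step mark q q') from H _ q le_rfl
  intro n
  induction n with
  | zero =>
    intro q hq
    rw [PP_eq]
    refine (hgt_all _).cat ((Hgt.of_prop _ (hgt_one 0)).union (Hgt.iUnion _ fun a => ?_))
    by_cases h : mark q a = false ∧ step q a ≠ q
    · exfalso
      rcases hrk q a h.1 with h1 | h1
      · exact h.2 h1
      · omega
    · refine (hgt_empty 0).congr ?_
      ext w
      simp only [Set.mem_empty_iff_false, iff_false]
      rintro ⟨h1, -⟩
      exact h h1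
  | succ n ih =>
    intro q hq
    rw [PP_eq]
    refine (hgt_all _).cat ((Hgt.of_prop _ (hgt_one 0)).union (Hgt.iUnion _ fun a => ?_))
    by_cases h : mark q a = false ∧ step q a ≠ q
    · refine Hgt.of_prop _ ((hgt_letter 0 a).cat (ih _ ?_))
      rcases hrk q a h.1 with h1 | h1
      · exact absurd h1 h.2
      · omega
    · refine (hgt_empty 0).congr ?_
      ext w
      simp only [Set.mem_empty_iff_false, iff_false]
      rintro ⟨h1, -⟩
      exact h h1

theorem TT_hgt [Finite α] [Finite Q] (h : ∀ q q', Hgt 0 (PP step mark q q')) (q : Q) :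
    Hgt 0 (TT step mark q) := by
  refine (Hgt.iUnion _ fun q' => h q q').congr ?_
  ext w
  simp [TT, PP]

theorem FF_hgt [Finite α] [Finite Q] (h : ∀ q q', Hgt 0 (PP step mark q q')) (q : Q) :
    Hgt 0 (FF step mark q) := by
  have h2 : Hgt 0 (⋃ q' : Q, ⋃ a : α, {w | mark q' a = true ∧
      w ∈ cat (PP step mark q q') {[a]}}) :=
    Hgt.iUnion _ fun q' => Hgt.iUnion _ fun a => Hgt.of_prop _ ((h q q').cat (hgt_letter 0 a))
  refine h2.congr ?_
  ext w
  constructor
  · rintro ⟨v, a, rfl, h1, h2⟩
    refine Set.mem_iUnion.2 ⟨run step q v, Set.mem_iUnion.2 ⟨a, h2, v, ⟨h1, rfl⟩, [a], rfl, rfl⟩⟩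
  · intro hw
    obtain ⟨q', hw⟩ := Set.mem_iUnion.1 hw
    obtain ⟨a, hm, v, hv, z, hz, rfl⟩ := Set.mem_iUnion.1 hw
    rw [Set.mem_singleton_iff.1 hz]
    exact ⟨v, a, rfl, hv.1, by rw [hv.2]; exact hm⟩

section renewal

variable (c : Q) (hc : ∀ q a, mark q a = true → step q a = c)

include hc

theorem mem_FF {q : Q} {x : List α} (hx : x ∈ FF step mark q) :
    cnt step mark q x = 1 ∧ run step q x = c := by
  obtain ⟨v, a, rfl, h1, h2⟩ := hx
  refine ⟨?_, ?_⟩
  · rw [cnt_append, h1]; simp [cnt, h2]
  · rw [run_append]; simp [run, hc _ _ h2]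

theorem cnt_succ {q : Q} {k : ℕ} {w : List α} (h : cnt step mark q w = k + 1) :
    ∃ x ∈ FF step mark q, ∃ y, cnt step mark c y = k ∧ w = x ++ y := by
  induction w generalizing q with
  | nil => simp [cnt] at h
  | cons a w ih =>
    by_cases hm : mark q a = true
    · refine ⟨[a], ⟨[], a, rfl, rfl, hm⟩, w, ?_, rfl⟩
      simp only [cnt, hm, if_true, hc _ _ hm] at h
      omega
    · simp only [cnt, hm, if_false, Bool.false_eq_true, zero_add] at h
      obtain ⟨x, ⟨v, b, rfl, h1, h2⟩, y, hy, rfl⟩ := ih h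
      refine ⟨a :: (v ++ [b]), ⟨a :: v, b, rfl, ?_, h2⟩, y, hy, rfl⟩
      simp [cnt, hm, h1]

theorem mem_lpow_FF {n : ℕ} {x : List α} (hx : x ∈ lpow (FF step mark c) n) :
    cnt step mark c x = n ∧ run step c x = c := by
  induction n generalizing x with
  | zero =>
    rw [lpow, Set.mem_singleton_iff] at hx
    subst hx
    exact ⟨rfl, rfl⟩
  | succ n ih =>
    obtain ⟨y, hy, z, hz, rfl⟩ := hx
    have h1 := mem_FF step mark c hc hy
    have h2 := ih hz
    refine ⟨?_, ?_⟩
    · rw [cnt_append, h1.1, h1.2, h2.1]; omega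
    · rw [run_append, h1.2, h2.2]

theorem mem_lstar_FF {N : ℕ} {x : List α} (hx : x ∈ lstar (lpow (FF step mark c) N)) :
    (∃ j, cnt step mark c x = N * j) ∧ run step c x = c := by
  obtain ⟨l, hl, rfl⟩ := hx
  induction l with
  | nil => exact ⟨⟨0, rfl⟩, rfl⟩
  | cons y l ih =>
    have h1 := mem_lpow_FF step mark c hc (hl y List.mem_cons_self)
    obtain ⟨⟨j, hj⟩, h2⟩ := ih (fun x hx => hl x (List.mem_cons_of_mem _ hx))
    refine ⟨⟨j + 1, ?_⟩, ?_⟩
    · rw [List.flatten_cons, cnt_append, h1.1, h1.2, hj]; ring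
    · rw [List.flatten_cons, run_append, h1.2, h2]

theorem exists_lpow {k : ℕ} {w : List α} (h : cnt step mark c w = k) :
    ∃ x ∈ lpow (FF step mark c) k, ∃ y ∈ TT step mark c, w = x ++ y := by
  induction k generalizing w with
  | zero => exact ⟨[], rfl, w, h, rfl⟩
  | succ k ih =>
    obtain ⟨x, hx, y, hy, rfl⟩ := cnt_succ step mark c hc h
    obtain ⟨x', hx', z, hz, rfl⟩ := ih hy
    exact ⟨x ++ x', ⟨x, hx, x', hx', rfl⟩, z, hz, by simp⟩

omit hc in
theorem lpow_split {P : Set (List α)} {m n : ℕ} {x : List α} (hx : x ∈ lpow P (m + n)) :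
    ∃ y ∈ lpow P m, ∃ z ∈ lpow P n, x = y ++ z := by
  induction m generalizing x with
  | zero => exact ⟨[], rfl, x, by simpa using hx, rfl⟩
  | succ m ih =>
    rw [Nat.succ_add] at hx
    obtain ⟨y, hy, z, hz, rfl⟩ := hx
    obtain ⟨y', hy', z', hz', rfl⟩ := ih hz
    exact ⟨y ++ y', ⟨y, hy, y', hy', rfl⟩, z', hz', by simp⟩

omit hc in
theorem lpow_lstar {P : Set (List α)} {N j : ℕ} {x : List α} (hx : x ∈ lpow P (N * j)) :
    x ∈ lstar (lpow P N) := by
  induction j generalizing x with
  | zero =>
    rw [Nat.mul_zero, lpow, Set.mem_singleton_iff] at hx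
    subst hx
    exact ⟨[], by simp, rfl⟩
  | succ j ih =>
    rw [Nat.mul_succ, Nat.add_comm] at hx
    obtain ⟨y, hy, z, hz, rfl⟩ := lpow_split hx
    obtain ⟨l, hl, rfl⟩ := ih hz
    refine ⟨y :: l, ?_, by simp⟩
    intro t ht
    rcases List.mem_cons.1 ht with rfl | ht
    · exact hy
    · exact hl t ht

theorem cnt_mod_c (N : ℕ) [NeZero N] (h : ∀ q q', Hgt 0 (PP step mark q q'))
    [Finite α] [Finite Q] : CompT (fun w => (cnt step mark c w : ZMod N)) := by
  intro r
  have hF := FF_hgt step mark h c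
  have hT := TT_hgt step mark h c
  refine (((hF.lpow N).star).cat (((hF.lpow r.val).mono (Nat.zero_le 1)).cat
    (hT.mono (Nat.zero_le 1)))).congr ?_
  ext w
  constructor
  · intro hw
    have hk : cnt step mark c w = N * (cnt step mark c w / N) + r.val := by
      have h1 : (cnt step mark c w : ZMod N) = r := hw
      have h2 : r.val = cnt step mark c w % N := by rw [← h1, ZMod.val_natCast]
      rw [h2]
      exact (Nat.div_add_mod _ _).symm
    obtain ⟨x, hx, y, hy, rfl⟩ := exists_lpow step mark c hc hk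
    obtain ⟨x1, hx1, x2, hx2, rfl⟩ := lpow_split hx
    exact ⟨x1, lpow_lstar hx1, x2 ++ y, ⟨x2, hx2, y, hy, rfl⟩, by simp⟩
  · rintro ⟨x, hx, z, ⟨y, hy, t, ht, rfl⟩, rfl⟩
    obtain ⟨⟨j, hj⟩, h1⟩ := mem_lstar_FF step mark c hc hx
    obtain ⟨h2, h3⟩ := mem_lpow_FF step mark c hc hy
    have ht' : cnt step mark c t = 0 := ht
    show ((cnt step mark c (x ++ (y ++ t)) : ℕ) : ZMod N) = r
    rw [cnt_append, cnt_append, h1, hj, h2, h3, ht']
    simp

theorem cnt_mod (N : ℕ) [NeZero N] (h : ∀ q q', Hgt 0 (PP step mark q q'))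
    [Finite α] [Finite Q] (q : Q) : CompT (fun w => (cnt step mark q w : ZMod N)) := by
  intro r
  have hF := FF_hgt step mark h q
  have hT := TT_hgt step mark h q
  have hC := cnt_mod_c step mark c hc N h (r - 1)
  refine ((Hgt.of_prop (r = 0) (hT.mono (Nat.zero_le 1))).union
    ((hF.mono (Nat.zero_le 1)).cat hC)).congr ?_
  ext w
  constructor
  · intro hw
    have hw' : (cnt step mark q w : ZMod N) = r := hw
    rcases Nat.eq_zero_or_pos (cnt step mark q w) with h0 | h0
    · left
      refine ⟨?_, h0⟩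
      rw [h0] at hw'
      simpa using hw'.symm
    · right
      obtain ⟨k, hk⟩ := Nat.exists_eq_succ_of_ne_zero h0.ne'
      obtain ⟨x, hx, y, hy, rfl⟩ := cnt_succ step mark c hc hk
      refine ⟨x, hx, y, ?_, rfl⟩
      show (cnt step mark c y : ZMod N) = r - 1
      rw [← hw', hk, hy]
      simp
  · rintro (⟨h0, hw⟩ | ⟨x, hx, y, hy, rfl⟩)
    · have hw' : cnt step mark q w = 0 := hw
      show (cnt step mark q w : ZMod N) = r
      rw [hw', h0]; simp
    · obtain ⟨h1, h2⟩ := mem_FF step mark c hc hx
      have hy' : (cnt step mark c y : ZMod N) = r - 1 := hy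
      show (cnt step mark q (x ++ y) : ZMod N) = r
      rw [cnt_append, h1, h2, Nat.cast_add, hy']
      simp

end renewal

end Vale.Agent.P329
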